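import Mathlib.LinearAlgebra.Matrix.SpecialLinearGroup
import Mathlib.LinearAlgebra.Matrix.Trace
import Mathlib.Tactic

set_option linter.all false

/-!
The group `SL(2, 4)`, with a code in `0, ..., 4095` for each element, in which the kernel computes
products quickly.
-/

namespace Vale.Agent.P258.Four

/-- Products in the field with four elements, as a table. -/
def fmN (a b : ℕ) : ℕ :=
  Nat.land (Nat.shiftRight 2625168384 (Nat.mul 2 (Nat.add (Nat.mul 4 a) b))) 3

theorem fmN_lt (a b : ℕ) : fmN a b < 4 := by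
  have h : fmN a b ≤ 3 := Nat.and_le_right
  omega

/-- The field with four elements. -/
structure F4 where
  val : ℕ
  lt : val < 4

namespace F4

@[ext] theorem ext' {a b : F4} (h : a.val = b.val) : a = b := by
  cases a; cases b; simp_all

def ofFin (a : Fin 4) : F4 := ⟨a.val, a.isLt⟩

def toFin (a : F4) : Fin 4 := ⟨a.val, a.lt⟩

def equivFin : F4 ≃ Fin 4 := ⟨toFin, ofFin, fun _ => rfl, fun _ => rfl⟩

instance : DecidableEq F4 := fun a b => decidable_of_iff (a.val = b.val) ⟨ext', fun h => by rw [h]⟩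

instance : Fintype F4 := Fintype.ofEquiv (Fin 4) equivFin.symm

theorem forall_iff {p : F4 → Prop} : (∀ a, p a) ↔ ∀ a : Fin 4, p (ofFin a) :=
  ⟨fun h a => h _, fun h a => h a.toFin⟩

instance : Zero F4 := ⟨⟨0, by decide⟩⟩
instance : One F4 := ⟨⟨1, by decide⟩⟩
instance : Add F4 := ⟨fun a b => ⟨Nat.xor a.val b.val, Nat.xor_lt_two_pow (n := 2) a.lt b.lt⟩⟩
instance : Neg F4 := ⟨fun a => a⟩
instance : Mul F4 := ⟨fun a b => ⟨fmN a.val b.val, fmN_lt _ _⟩⟩

theorem add_val (a b : F4) : (a + b).val = Nat.xor a.val b.val := rfl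
theorem mul_val (a b : F4) : (a * b).val = fmN a.val b.val := rfl
theorem neg_eq (a : F4) : -a = a := rfl
theorem zero_val : (0 : F4).val = 0 := rfl
theorem one_val : (1 : F4).val = 1 := rfl

theorem add_assoc' : ∀ a b c : Fin 4, ofFin a + ofFin b + ofFin c = ofFin a + (ofFin b + ofFin c) := by
  decide +kernel
theorem mul_assoc' : ∀ a b c : Fin 4, ofFin a * ofFin b * ofFin c = ofFin a * (ofFin b * ofFin c) := by
  decide +kernel
theorem left_distrib' : ∀ a b c : Fin 4,
    ofFin a * (ofFin b + ofFin c) = ofFin a * ofFin b + ofFin a * ofFin c := by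
  decide +kernel
theorem add_comm' : ∀ a b : Fin 4, ofFin a + ofFin b = ofFin b + ofFin a := by decide +kernel
theorem mul_comm' : ∀ a b : Fin 4, ofFin a * ofFin b = ofFin b * ofFin a := by decide +kernel
theorem zero_add' : ∀ a : Fin 4, 0 + ofFin a = ofFin a := by decide +kernel
theorem one_mul' : ∀ a : Fin 4, 1 * ofFin a = ofFin a := by decide +kernel
theorem neg_add' : ∀ a : Fin 4, -ofFin a + ofFin a = 0 := by decide +kernel
theorem zero_mul' : ∀ a : Fin 4, 0 * ofFin a = 0 := by decide +kernel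

instance : CommRing F4 where
  add_assoc a b c := add_assoc' a.toFin b.toFin c.toFin
  zero_add a := zero_add' a.toFin
  add_zero a := (add_comm' a.toFin 0).trans (zero_add' a.toFin)
  add_comm a b := add_comm' a.toFin b.toFin
  left_distrib a b c := left_distrib' a.toFin b.toFin c.toFin
  right_distrib a b c := by
    have h1 : (a + b) * c = c * (a + b) := mul_comm' (a + b).toFin c.toFin
    have h2 : a * c = c * a := mul_comm' a.toFin c.toFin
    have h3 : b * c = c * b := mul_comm' b.toFin c.toFin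
    rw [h1, h2, h3]
    exact left_distrib' c.toFin a.toFin b.toFin
  zero_mul a := zero_mul' a.toFin
  mul_zero a := (mul_comm' a.toFin 0).trans (zero_mul' a.toFin)
  mul_assoc a b c := mul_assoc' a.toFin b.toFin c.toFin
  one_mul a := one_mul' a.toFin
  mul_one a := (mul_comm' a.toFin 1).trans (one_mul' a.toFin)
  neg_add_cancel a := neg_add' a.toFin
  mul_comm a b := mul_comm' a.toFin b.toFin
  nsmul := nsmulRec
  zsmul := zsmulRec
  npow := npowRec

end F4

/-- The group `SL(2, 4)`. -/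
abbrev G := Matrix.SpecialLinearGroup (Fin 2) F4

/-- The number with the octal digits `d, c, b, a`. -/
def cd (a b c d : ℕ) : ℕ :=
  Nat.add (Nat.add a (Nat.mul 8 b)) (Nat.add (Nat.mul 64 c) (Nat.mul 512 d))

def mulA (a b c d e f g h : ℕ) : ℕ :=
  cd (Nat.xor (fmN a e) (fmN b g)) (Nat.xor (fmN a f) (fmN b h))
    (Nat.xor (fmN c e) (fmN d g)) (Nat.xor (fmN c f) (fmN d h))

def mulN (x y : ℕ) : ℕ :=
  mulA (Nat.land x 7) (Nat.land (Nat.shiftRight x 3) 7) (Nat.land (Nat.shiftRight x 6) 7)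
    (Nat.shiftRight x 9) (Nat.land y 7) (Nat.land (Nat.shiftRight y 3) 7)
    (Nat.land (Nat.shiftRight y 6) 7) (Nat.shiftRight y 9)

def invN (x : ℕ) : ℕ :=
  Nat.add (Nat.add (Nat.shiftRight x 9) (Nat.land x 504)) (Nat.mul 512 (Nat.land x 7))

def cjN (x k : ℕ) : ℕ := mulN (mulN (invN k) x) k

def ciN (x k : ℕ) : ℕ := mulN (mulN k x) (invN k)

def force {α : Type} (n : ℕ) (f : ℕ → α) : α :=
  Nat.rec (motive := fun _ => α) (f 0) (fun m _ => f (Nat.succ m)) n

theorem force_eq {α : Type} (n : ℕ) (f : ℕ → α) : force n f = f n := by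
  cases n <;> rfl

def fsi (a : ℕ) : ℕ := Nat.land (Nat.shiftRight 1672 (Nat.mul 3 a)) 7

def wsc (s a b c d : ℕ) : ℕ := cd (fmN s a) (fmN s b) (fmN s c) (fmN s d)

def wA (a b c d : ℕ) : ℕ :=
  cond (Nat.beq b 0) (cond (Nat.beq c 0) (wsc (fsi (Nat.xor a d)) 1 1 a d) (wsc (fsi c) 0 1 c d))
    (wsc (fsi b) 1 0 a b)

/-- The code of a matrix conjugating the given one to the companion matrix. -/
def wN (x : ℕ) : ℕ :=
  wA (Nat.land x 7) (Nat.land (Nat.shiftRight x 3) 7) (Nat.land (Nat.shiftRight x 6) 7)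
    (Nat.shiftRight x 9)

def inv13 (x : ℕ) : ℕ :=
  force (invN x) fun u => force (mulN u u) fun u2 => force (mulN u2 u2) fun u4 =>
    mulN (mulN (mulN u4 u4) u4) u

/-- The codes of the elements of trace `t`. -/
def cl (t : ℕ) : List ℕ :=
  ([[], [73, 153, 209, 584, 664, 720, 1027, 1035, 1043, 1051, 1091, 1155, 1219, 1538, 1546, 1554, 1562, 1602, 1666, 1730], [74, 154, 210, 595, 651, 731, 1096, 1176, 1232, 1617, 1673, 1753], [75, 155, 211, 602, 658, 714, 1113, 1169, 1225, 1608, 1688, 1744]] : List (List ℕ)).getD t []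

/-- The codes of the elements commuting with the companion matrix of trace `t`. -/
def cen (t : ℕ) : List ℕ :=
  ([[], [73, 513, 584], [74, 513, 658, 1096, 1169], [75, 513, 731, 1608, 1753]] : List (List ℕ)).getD t []

end Vale.Agent.P258.Four
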